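import Vale.Agent.P108.FinalK

open MeasureTheory

theorem Vale.Agent.Results.P108.Entropy.result :
    (∃ k0 : ℝ, ∀ k : ℝ, k0 ≤ |k| → 0 < Vale.Agent.P108.ksEnt (Vale.Agent.P108.stdMap k)) ∧
      0 < volume {k : ℝ | 0 < Vale.Agent.P108.ksEnt (Vale.Agent.P108.stdMap k)} :=
  Vale.Agent.P108.finalK
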