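import Vale.Agent.P108.Final

open MeasureTheory

theorem Vale.Agent.Results.P108.Lyapunov.result :
    (∃ k0 : ℝ, ∀ k : ℝ, k0 ≤ |k| → Vale.Agent.P108.PosExp k) ∧
      0 < volume {k : ℝ | Vale.Agent.P108.PosExp k} :=
  Vale.Agent.P108.final
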